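import Vale.Agent.P133.R2.H307.Spec2
import Mathlib.Topology.ShrinkingLemma
import Mathlib.Topology.UrysohnsLemma
import Mathlib.Analysis.Normed.Module.Basic
import Mathlib.Analysis.SpecificLimits.Basic

/-!
P133 (row S of helper307): selection for open relations over compact spaces with property C.
-/

namespace Vale.Agent.P133.R2.H712.Sel

open Set Topology Vale.Agent.P133.R2.H307

universe v w

section

variable {K : Type v} [TopologicalSpace K] {V : Type w} [NormedAddCommGroup V]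
  [NormedSpace ℝ V] {G : Set (K × V)}

omit [NormedSpace ℝ V] in
theorem tube (hG : IsOpen G) {t : K} {S : Set V} (hS : IsCompact S) (h : ∀ y ∈ S, (t, y) ∈ G) :
    ∃ U : Set K, IsOpen U ∧ t ∈ U ∧ ∃ μ : ℝ, 0 < μ ∧ ∀ s ∈ U, ∀ y ∈ S, ∀ e : V, ‖e‖ ≤ μ →
      (s, y + e) ∈ G := by
  refine hS.induction_on (p := fun S' => ∃ U : Set K, IsOpen U ∧ t ∈ U ∧ ∃ μ : ℝ, 0 < μ ∧
    ∀ s ∈ U, ∀ y ∈ S', ∀ e : V, ‖e‖ ≤ μ → (s, y + e) ∈ G) ?_ ?_ ?_ ?_
  · exact ⟨univ, isOpen_univ, trivial, 1, one_pos, fun _ _ b hb => absurd hb (notMem_empty b)⟩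
  · rintro B₁ B₂ h12 ⟨U, hU, ht, μ, hμ, h1⟩
    exact ⟨U, hU, ht, μ, hμ, fun s hs b hb => h1 s hs b (h12 hb)⟩
  · rintro B₁ B₂ ⟨U₁, hU₁, ht₁, μ₁, hμ₁, h₁⟩ ⟨U₂, hU₂, ht₂, μ₂, hμ₂, h₂⟩
    refine ⟨U₁ ∩ U₂, hU₁.inter hU₂, ⟨ht₁, ht₂⟩, min μ₁ μ₂, lt_min hμ₁ hμ₂, ?_⟩
    rintro s ⟨hs1, hs2⟩ b (hb | hb) e he
    · exact h₁ s hs1 b hb e (he.trans (min_le_left _ _))
    · exact h₂ s hs2 b hb e (he.trans (min_le_right _ _))
  · intro y hy
    obtain ⟨U, T, hU, hT, htU, hyT, hUT⟩ := isOpen_prod_iff.1 hG t y (h y hy)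
    obtain ⟨ε, hε, hball⟩ := Metric.isOpen_iff.1 hT y hyT
    refine ⟨Metric.ball y (ε / 2), mem_nhdsWithin_of_mem_nhds
      (Metric.ball_mem_nhds y (half_pos hε)), U, hU, htU, ε / 3, by positivity, ?_⟩
    intro s hs y' hy' e he
    refine hUT ⟨hs, hball ?_⟩
    rw [Metric.mem_ball, dist_eq_norm] at hy' ⊢
    have e1 : y' + e - y = (y' - y) + e := by abel
    rw [e1]
    refine (norm_add_le _ _).trans_lt ?_
    linarith

/-- the hypothesis of the theorem -/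
def Hyp (G : Set (K × V)) : Prop := ∀ (t : K) (C : Set V), IsCompact C → ∀ ρ : ℝ, 0 < ρ →
  ∃ z : V → V, ContinuousOn z C ∧ ∀ b ∈ C, ‖z b‖ ≤ ρ ∧ (t, b + z b) ∈ G

theorem step [CompactSpace K] (hG : IsOpen G) (h : Hyp G) {B : Set V} (hB : IsCompact B) {ρ : ℝ}
    (hρ : 0 < ρ) :
    ∃ (F : Set (Set K × (V → V))) (μ : ℝ), F.Finite ∧ 0 < μ ∧ (∀ p ∈ F, IsOpen p.1 ∧
      ContinuousOn p.2 B ∧ (∀ b ∈ B, ‖p.2 b‖ ≤ ρ) ∧
      ∀ s ∈ p.1, ∀ b ∈ B, ∀ e : V, ‖e‖ ≤ μ → (s, b + p.2 b + e) ∈ G) ∧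
      ∀ t, ∃ p ∈ F, t ∈ p.1 := by
  suffices hmain : ∃ (F : Set (Set K × (V → V))) (μ : ℝ), F.Finite ∧ 0 < μ ∧
      (∀ p ∈ F, IsOpen p.1 ∧ ContinuousOn p.2 B ∧ (∀ b ∈ B, ‖p.2 b‖ ≤ ρ) ∧
      ∀ s ∈ p.1, ∀ b ∈ B, ∀ e : V, ‖e‖ ≤ μ → (s, b + p.2 b + e) ∈ G) ∧
      ∀ t ∈ (univ : Set K), ∃ p ∈ F, t ∈ p.1 by
    obtain ⟨F, μ, h1, h2, h3, h4⟩ := hmain
    exact ⟨F, μ, h1, h2, h3, fun t => h4 t trivial⟩
  refine (isCompact_univ (X := K)).induction_on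
    (p := fun X' => ∃ (F : Set (Set K × (V → V))) (μ : ℝ), F.Finite ∧ 0 < μ ∧
      (∀ p ∈ F, IsOpen p.1 ∧ ContinuousOn p.2 B ∧ (∀ b ∈ B, ‖p.2 b‖ ≤ ρ) ∧
      ∀ s ∈ p.1, ∀ b ∈ B, ∀ e : V, ‖e‖ ≤ μ → (s, b + p.2 b + e) ∈ G) ∧
      ∀ t ∈ X', ∃ p ∈ F, t ∈ p.1) ?_ ?_ ?_ ?_
  · exact ⟨∅, 1, finite_empty, one_pos, fun p hp => absurd hp (notMem_empty p),
      fun t ht => absurd ht (notMem_empty t)⟩
  · rintro X₁ X₂ h12 ⟨F, μ, h1, h2, h3, h4⟩
    exact ⟨F, μ, h1, h2, h3, fun t ht => h4 t (h12 ht)⟩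
  · rintro X₁ X₂ ⟨F₁, μ₁, a1, a2, a3, a4⟩ ⟨F₂, μ₂, b1, b2, b3, b4⟩
    refine ⟨F₁ ∪ F₂, min μ₁ μ₂, a1.union b1, lt_min a2 b2, ?_, ?_⟩
    · rintro p (hp | hp)
      · obtain ⟨c1, c2, c3, c4⟩ := a3 p hp
        exact ⟨c1, c2, c3, fun s hs b hb e he => c4 s hs b hb e (he.trans (min_le_left _ _))⟩
      · obtain ⟨c1, c2, c3, c4⟩ := b3 p hp
        exact ⟨c1, c2, c3, fun s hs b hb e he => c4 s hs b hb e (he.trans (min_le_right _ _))⟩
    · rintro t (ht | ht)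
      · obtain ⟨p, hp, h⟩ := a4 t ht
        exact ⟨p, Or.inl hp, h⟩
      · obtain ⟨p, hp, h⟩ := b4 t ht
        exact ⟨p, Or.inr hp, h⟩
  · intro t _
    obtain ⟨z, hz, hz'⟩ := h t B hB ρ hρ
    have hS : IsCompact ((fun b => b + z b) '' B) := hB.image_of_continuousOn
      (continuousOn_id.add hz)
    obtain ⟨U, hU, htU, μ, hμ, h1⟩ := tube hG (t := t) hS (by
      rintro _ ⟨b, hb, rfl⟩
      exact (hz' b hb).2)
    refine ⟨U, mem_nhdsWithin_of_mem_nhds (hU.mem_nhds htU), {(U, z)}, μ,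
      finite_singleton _, hμ, ?_, ?_⟩
    · rintro p rfl
      exact ⟨hU, hz, fun b hb => (hz' b hb).1, fun s hs b hb e he => h1 s hs _ ⟨b, hb, rfl⟩ e he⟩
    · exact fun s hs => ⟨_, rfl, hs⟩

/-- the next compact set -/
def nB (B : Set V) (F : Set (Set K × (V → V))) : Set V :=
  B ∪ ⋃ p ∈ F, (fun q : ℝ × V => q.2 + q.1 • p.2 q.2) '' (Icc (0 : ℝ) 1 ×ˢ B)

omit [TopologicalSpace K] in
theorem isCompact_nB {B : Set V} (hB : IsCompact B) {F : Set (Set K × (V → V))} (hF : F.Finite)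
    (hc : ∀ p ∈ F, ContinuousOn p.2 B) : IsCompact (nB B F) := by
  refine hB.union (hF.isCompact_biUnion fun p hp => ?_)
  refine (isCompact_Icc.prod hB).image_of_continuousOn ?_
  have h1 : ContinuousOn (fun q : ℝ × V => p.2 q.2) (Icc (0 : ℝ) 1 ×ˢ B) :=
    (hc p hp).comp continuousOn_snd fun q hq => hq.2
  exact continuousOn_snd.add (continuousOn_fst.smul h1)

/-- the state of the recursion -/
structure St (V : Type w) [NormedAddCommGroup V] where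
  B : Set V
  comp : IsCompact B
  ρ : ℝ
  pos : 0 < ρ

theorem exists_next [CompactSpace K] (hG : IsOpen G) (h : Hyp G) (s : St V) :
    ∃ (F : Set (Set K × (V → V))) (μ : ℝ) (s' : St V), (∀ p ∈ F, IsOpen p.1 ∧
      ContinuousOn p.2 s.B ∧ (∀ b ∈ s.B, ‖p.2 b‖ ≤ s.ρ) ∧
      ∀ t ∈ p.1, ∀ b ∈ s.B, ∀ e : V, ‖e‖ ≤ μ → (t, b + p.2 b + e) ∈ G) ∧
      (∀ t, ∃ p ∈ F, t ∈ p.1) ∧ s'.ρ ≤ s.ρ / 2 ∧ 2 * s'.ρ ≤ μ ∧ s'.B = nB s.B F := by
  obtain ⟨F, μ, h1, h2, h3, h4⟩ := step hG h s.comp s.pos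
  exact ⟨F, μ, ⟨nB s.B F, isCompact_nB s.comp h1 fun p hp => (h3 p hp).2.1,
    min (s.ρ / 2) (μ / 2), lt_min (half_pos s.pos) (half_pos h2)⟩, h3, h4, min_le_left _ _,
    by
      have := min_le_right (s.ρ / 2) (μ / 2)
      change 2 * min (s.ρ / 2) (μ / 2) ≤ μ
      linarith, rfl⟩

theorem exists_seq [CompactSpace K] (hG : IsOpen G) (h : Hyp G) :
    ∃ (F : ℕ → Set (Set K × (V → V))) (μ ρ : ℕ → ℝ) (B : ℕ → Set V), (0 : V) ∈ B 0 ∧
      (∀ i, 0 < ρ i) ∧ (∀ i, ∀ p ∈ F i, IsOpen p.1 ∧ ContinuousOn p.2 (B i) ∧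
      (∀ b ∈ B i, ‖p.2 b‖ ≤ ρ i) ∧
      ∀ t ∈ p.1, ∀ b ∈ B i, ∀ e : V, ‖e‖ ≤ μ i → (t, b + p.2 b + e) ∈ G) ∧
      (∀ i t, ∃ p ∈ F i, t ∈ p.1) ∧ (∀ i, ρ (i + 1) ≤ ρ i / 2) ∧ (∀ i, 2 * ρ (i + 1) ≤ μ i) ∧
      ∀ i, B (i + 1) = nB (B i) (F i) := by
  choose F μ nx hF hcov hρ hρμ hB using exists_next (K := K) hG h
  let s0 : St V := ⟨{0}, isCompact_singleton, 1, one_pos⟩
  let st : ℕ → St V := fun n => Nat.rec s0 (fun _ s => nx s) n
  exact ⟨fun i => F (st i), fun i => μ (st i), fun i => (st i).ρ, fun i => (st i).B,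
    mem_singleton _, fun i => (st i).pos, fun i => hF (st i), fun i => hcov (st i),
    fun i => hρ (st i), fun i => hρμ (st i), fun i => hB (st i)⟩

end

theorem sel (K : Type v) [TopologicalSpace K] [CompactSpace K] [T2Space K]
    (hK : HasPropertyC K) (V : Type w) [NormedAddCommGroup V] [NormedSpace ℝ V]
    (G : Set (K × V)) (hG : IsOpen G) (h : Hyp G) : ∃ F : C(K, V), ∀ t, (t, F t) ∈ G := by
  classical
  obtain ⟨F, μ, ρ, B, hB0, hρ0, hF, hcov, hρ, hρμ, hB⟩ := exists_seq hG h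
  obtain ⟨W, hW, hWcov⟩ := hK (fun i => Prod.fst '' F i) (fun i => ⟨by
    rintro _ ⟨p, hp, rfl⟩
    exact (hF i p hp).1, by
    rw [eq_univ_iff_forall]
    intro t
    obtain ⟨p, hp, ht⟩ := hcov i t
    exact ⟨p.1, ⟨p, hp, rfl⟩, ht⟩⟩)
  -- the finite subcover
  let ι := {p : ℕ × Set K // p.2 ∈ W p.1}
  have hopen : ∀ p : ι, IsOpen p.1.2 := fun p => ((hW p.1.1).1 _ p.2).1
  obtain ⟨J, hJ⟩ := (isCompact_univ (X := K)).elim_finite_subcover (fun p : ι => p.1.2) hopen (by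
    intro t _
    have ht : t ∈ ⋃ i, ⋃₀ W i := by rw [hWcov]; trivial
    obtain ⟨i, v, hv, htv⟩ : ∃ i, ∃ v ∈ W i, t ∈ v := by simpa using ht
    exact mem_iUnion.2 ⟨⟨(i, v), hv⟩, htv⟩)
  have hy : ∀ p : ι, ∃ q ∈ F p.1.1, p.1.2 ⊆ q.1 := by
    intro p
    obtain ⟨-, u, ⟨q, hq, rfl⟩, hsub⟩ := (hW p.1.1).1 _ p.2
    exact ⟨q, hq, hsub⟩
  choose q hq hqsub using hy
  -- shrinking
  obtain ⟨T, hT1, hT2, hT3⟩ := exists_iUnion_eq_closed_subset (X := K)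
    (u := fun p : J => p.1.1.2) (fun p => hopen p.1) (fun _ => toFinite _) (by
      rw [eq_univ_iff_forall]
      intro t
      have := hJ (mem_univ t)
      simp only [mem_iUnion] at this
      obtain ⟨p, hp, ht⟩ := this
      exact mem_iUnion.2 ⟨⟨p, hp⟩, ht⟩)
  have hφ : ∀ p : J, ∃ φ : C(K, ℝ), EqOn φ 0 (p.1.1.2)ᶜ ∧ EqOn φ 1 (T p) ∧
      ∀ x, φ x ∈ Icc (0 : ℝ) 1 := fun p =>
    exists_continuous_zero_one_of_isClosed (hopen p.1).isClosed_compl (hT2 p)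
      (disjoint_left.2 fun x hx hx' => hx (hT3 p hx'))
  choose φ hφ0 hφ1 hφI using hφ
  have hφex : ∀ t, ∃ p : J, φ p t = 1 := by
    intro t
    have ht : t ∈ iUnion T := by rw [hT1]; trivial
    obtain ⟨p, hp⟩ := mem_iUnion.1 ht
    exact ⟨p, hφ1 p hp⟩
  have hmem : ∀ (p : J) t, φ p t ≠ 0 → t ∈ p.1.1.2 := by
    intro p t hne
    by_contra hcon
    exact hne (hφ0 p hcon)
  have huniq : ∀ (p p' : J) t, p.1.1.1 = p'.1.1.1 → φ p t ≠ 0 → φ p' t ≠ 0 → p = p' := by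
    intro p p' t he hp hp'
    have e1 : p.1.1.2 = p'.1.1.2 := by
      by_contra hne
      have hm' : p'.1.1.2 ∈ W p.1.1.1 := by rw [he]; exact p'.1.2
      have hd := (hW p.1.1.1).2 p.1.2 hm' hne
      exact disjoint_left.1 hd (hmem p t hp) (hmem p' t hp')
    exact Subtype.ext (Subtype.ext (Prod.ext he e1))
  -- the correction of one stage
  let cr : ℕ → K → V → V := fun j t b => ∑ p ∈ Finset.univ.filter (fun p : J => p.1.1.1 = j),
    φ p t • (q p.1).2 b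
  have cr_eq : ∀ (p : J) t b, φ p t ≠ 0 → cr p.1.1.1 t b = φ p t • (q p.1).2 b := by
    intro p t b hp
    refine Finset.sum_eq_single p ?_ ?_
    · intro p' hp' hne
      by_contra hcon
      refine hne (huniq p' p t (Finset.mem_filter.1 hp').2 (fun h0 => hcon (by rw [h0, zero_smul])) hp)
    · intro hp'
      have hpm : p ∈ Finset.univ.filter (fun p' : J => p'.1.1.1 = p.1.1.1) := by
        rw [Finset.mem_filter]
        exact ⟨Finset.mem_univ p, rfl⟩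
      exact absurd hpm hp'
  have cr_zero : ∀ j t b, (¬ ∃ p : J, p.1.1.1 = j ∧ φ p t ≠ 0) → cr j t b = 0 := by
    intro j t b hex
    refine Finset.sum_eq_zero fun p hp => ?_
    by_cases h0 : φ p t = 0
    · rw [h0, zero_smul]
    · exact absurd ⟨p, (Finset.mem_filter.1 hp).2, h0⟩ hex
  have cr_mem : ∀ j t, ∀ b ∈ B j, b + cr j t b ∈ B (j + 1) ∧ ‖cr j t b‖ ≤ ρ j := by
    intro j t b hb
    by_cases hex : ∃ p : J, p.1.1.1 = j ∧ φ p t ≠ 0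
    · obtain ⟨p, rfl, hp⟩ := hex
      rw [cr_eq p t b hp]
      refine ⟨?_, ?_⟩
      · rw [hB]
        exact Or.inr (mem_iUnion₂.2 ⟨q p.1, hq p.1, (φ p t, b), ⟨hφI p t, hb⟩, rfl⟩)
      · rw [norm_smul, Real.norm_of_nonneg (hφI p t).1]
        have h1 := (hF p.1.1.1 (q p.1) (hq p.1)).2.2.1 b hb
        have h2 : φ p t * ‖(q p.1).2 b‖ ≤ 1 * ‖(q p.1).2 b‖ :=
          mul_le_mul_of_nonneg_right (hφI p t).2 (norm_nonneg _)
        linarith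
    · rw [cr_zero j t b hex, add_zero, norm_zero]
      refine ⟨?_, (hρ0 j).le⟩
      rw [hB]
      exact Or.inl hb
  -- the functions
  let g : ℕ → K → V := fun n => Nat.rec (fun _ => 0) (fun j gj t => gj t + cr j t (gj t)) n
  have g_succ : ∀ j t, g (j + 1) t = g j t + cr j t (g j t) := fun j t => rfl
  have g_mem : ∀ j t, g j t ∈ B j := by
    intro j t
    induction j with
    | zero => exact hB0
    | succ j ih =>
      rw [g_succ]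
      exact (cr_mem j t _ ih).1
  have g_cont : ∀ j, Continuous (g j) := by
    intro j
    induction j with
    | zero => exact continuous_const
    | succ j ih =>
      have e : g (j + 1) = fun t => g j t + cr j t (g j t) := rfl
      rw [e]
      refine ih.add (continuous_finsetSum _ fun p hp => ?_)
      have hj : p.1.1.1 = j := (Finset.mem_filter.1 hp).2
      subst hj
      refine (φ p).continuous.smul ?_
      exact (hF p.1.1.1 (q p.1) (hq p.1)).2.1.comp_continuous ih fun t => g_mem _ t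
  have tail : ∀ i n, i + 1 ≤ n → ∀ t, ‖g n t - g (i + 1) t‖ + 2 * ρ n ≤ 2 * ρ (i + 1) := by
    intro i n hn t
    induction n, hn using Nat.le_induction with
    | base => rw [sub_self, norm_zero, zero_add]
    | succ n hn ih =>
      have h1 : ‖g (n + 1) t - g (i + 1) t‖ ≤ ‖g n t - g (i + 1) t‖ + ρ n := by
        rw [g_succ]
        have e : g n t + cr n t (g n t) - g (i + 1) t =
          (g n t - g (i + 1) t) + cr n t (g n t) := by abel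
        rw [e]
        exact (norm_add_le _ _).trans (by
          have := (cr_mem n t _ (g_mem n t)).2
          linarith)
      have h2 := hρ n
      linarith
  -- a bound for the stages
  obtain ⟨n, hn⟩ : ∃ n, ∀ p : J, p.1.1.1 < n := by
    obtain ⟨M, hM⟩ := (Finset.univ.image fun p : J => p.1.1.1).bddAbove
    exact ⟨M + 1, fun p => Nat.lt_succ_of_le
      (hM (Finset.mem_coe.2 (Finset.mem_image_of_mem _ (Finset.mem_univ p))))⟩
  refine ⟨⟨g n, g_cont n⟩, fun t => ?_⟩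
  change (t, g n t) ∈ G
  obtain ⟨p, hp⟩ := hφex t
  have hp0 : φ p t ≠ 0 := by rw [hp]; exact one_ne_zero
  have h1 : g (p.1.1.1 + 1) t = g p.1.1.1 t + (q p.1).2 (g p.1.1.1 t) := by
    rw [g_succ, cr_eq p t _ hp0, hp, one_smul]
  have h2 := tail p.1.1.1 n (hn p) t
  have h3 := hρμ p.1.1.1
  have h4 := hρ0 n
  have h5 := (hF p.1.1.1 (q p.1) (hq p.1)).2.2.2 t (hqsub p.1 (hmem p t hp0)) _
    (g_mem p.1.1.1 t) (g n t - g (p.1.1.1 + 1) t) (by linarith)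
  rw [← h1, add_sub_cancel] at h5
  exact h5

/-- ROW S. -/
theorem specSel : SpecSel.{v, w} := fun K _ _ _ hK V _ _ G hG h => sel K hK V G hG h

end Vale.Agent.P133.R2.H712.Sel
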