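import Vale.Agent.P133.R2.H307.Spec
import Mathlib.Topology.ShrinkingLemma
import Mathlib.Topology.UrysohnsLemma
import Mathlib.Topology.Algebra.Monoid
import Mathlib.Analysis.Normed.Module.Basic

/-!
P133 (row T of helper307): selection over compact spaces with property C.
-/

namespace Vale.Agent.P133.R2.H712

open Set Topology Vale.Agent.P133.R2.H307
open scoped Pointwise

universe v w

/-- the hypotheses on the seminorms -/
structure Sn {X : Type v} [TopologicalSpace X] {V : Type w} [NormedAddCommGroup V]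
    [NormedSpace ℝ V] (K : Set X) (N : X → V → ℝ) (C : ℝ) : Prop where
  nonneg : 0 ≤ C
  add : ∀ t y z, N t (y + z) ≤ N t y + N t z
  smul : ∀ t (c : ℝ) y, N t (c • y) = |c| * N t y
  le : ∀ t y, N t y ≤ C * ‖y‖
  closed : ∀ y (r : ℝ), IsClosed {t | t ∈ K ∧ N t y ≤ r}
  big : ∀ t ∈ K, ∀ S : Submodule ℝ V, FiniteDimensional ℝ S → ∃ y, ∀ s ∈ S, 0 < N t (y + s)

section

variable {X : Type v} [TopologicalSpace X] {V : Type w} [NormedAddCommGroup V]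
  [NormedSpace ℝ V] {K : Set X} {N : X → V → ℝ} {C : ℝ}

theorem loc1 (h : Sn K N C) {t : X} (y : V) {B : Set V} (hB : IsCompact B)
    (hy : ∀ b ∈ B, 0 < N t (y + b)) :
    ∃ U : Set X, IsOpen U ∧ t ∈ U ∧ ∃ μ : ℝ, 0 < μ ∧ ∀ s ∈ U, s ∈ K → ∀ b ∈ B,
      μ ≤ N s (y + b) := by
  refine hB.induction_on (p := fun B' => ∃ U : Set X, IsOpen U ∧ t ∈ U ∧ ∃ μ : ℝ, 0 < μ ∧
    ∀ s ∈ U, s ∈ K → ∀ b ∈ B', μ ≤ N s (y + b)) ?_ ?_ ?_ ?_
  · exact ⟨univ, isOpen_univ, trivial, 1, one_pos, fun _ _ _ b hb => absurd hb (notMem_empty b)⟩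
  · rintro B₁ B₂ h12 ⟨U, hU, ht, μ, hμ, h1⟩
    exact ⟨U, hU, ht, μ, hμ, fun s hs hK b hb => h1 s hs hK b (h12 hb)⟩
  · rintro B₁ B₂ ⟨U₁, hU₁, ht₁, μ₁, hμ₁, h₁⟩ ⟨U₂, hU₂, ht₂, μ₂, hμ₂, h₂⟩
    refine ⟨U₁ ∩ U₂, hU₁.inter hU₂, ⟨ht₁, ht₂⟩, min μ₁ μ₂, lt_min hμ₁ hμ₂, ?_⟩
    rintro s ⟨hs1, hs2⟩ hK b (hb | hb)
    · exact (min_le_left _ _).trans (h₁ s hs1 hK b hb)
    · exact (min_le_right _ _).trans (h₂ s hs2 hK b hb)
  · intro b hb
    have h0 := hy b hb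
    have hC : 0 < C + 1 := by have := h.nonneg; linarith
    obtain ⟨ν, hν, hν4⟩ : ∃ ν : ℝ, 0 < ν ∧ 4 * ν = N t (y + b) :=
      ⟨N t (y + b) / 4, by linarith, by ring⟩
    refine ⟨Metric.ball b (ν / (C + 1)), mem_nhdsWithin_of_mem_nhds
      (Metric.ball_mem_nhds b (div_pos hν hC)),
      {s | s ∈ K ∧ N s (y + b) ≤ 2 * ν}ᶜ, (h.closed (y + b) (2 * ν)).isOpen_compl, ?_, ν, hν, ?_⟩
    · rintro ⟨-, h2⟩
      linarith
    · intro s hs hK b' hb'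
      have h1 : 2 * ν < N s (y + b) := by
        by_contra hcon
        exact hs ⟨hK, not_lt.1 hcon⟩
      have h2 : N s (y + b) ≤ N s (y + b') + N s (b - b') := by
        have e : y + b = (y + b') + (b - b') := by abel
        rw [e]
        exact h.add _ _ _
      have h3 : N s (b - b') ≤ C * ‖b - b'‖ := h.le _ _
      have h4 : ‖b - b'‖ < ν / (C + 1) := by
        rw [← dist_eq_norm, dist_comm]
        exact Metric.mem_ball.1 hb'
      have h5 : C * ‖b - b'‖ ≤ ν := by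
        have h6 : C * ‖b - b'‖ ≤ (C + 1) * (ν / (C + 1)) :=
          mul_le_mul (by linarith) h4.le (norm_nonneg _) hC.le
        rwa [mul_div_cancel₀ _ hC.ne'] at h6
      linarith

theorem step [CompactSpace X] (h : Sn K N C) (hK : IsClosed K) (S : Submodule ℝ V)
    (hS : FiniteDimensional ℝ S) {B : Set V} (hB : IsCompact B) (hBS : ∀ b ∈ B, b ∈ S) {ρ : ℝ}
    (hρ : 0 < ρ) :
    ∃ (F : Set (Set X × V)) (μ : ℝ), F.Finite ∧ 0 < μ ∧ (∀ p ∈ F, IsOpen p.1 ∧ ‖p.2‖ ≤ ρ ∧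
      ∀ s ∈ p.1, s ∈ K → ∀ b ∈ B, μ ≤ N s (p.2 + b)) ∧ ∀ t, ∃ p ∈ F, t ∈ p.1 := by
  suffices hmain : ∃ (F : Set (Set X × V)) (μ : ℝ), F.Finite ∧ 0 < μ ∧
      (∀ p ∈ F, IsOpen p.1 ∧ ‖p.2‖ ≤ ρ ∧ ∀ s ∈ p.1, s ∈ K → ∀ b ∈ B, μ ≤ N s (p.2 + b)) ∧
      ∀ t ∈ (univ : Set X), ∃ p ∈ F, t ∈ p.1 by
    obtain ⟨F, μ, h1, h2, h3, h4⟩ := hmain
    exact ⟨F, μ, h1, h2, h3, fun t => h4 t trivial⟩
  refine (isCompact_univ (X := X)).induction_on
    (p := fun X' => ∃ (F : Set (Set X × V)) (μ : ℝ), F.Finite ∧ 0 < μ ∧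
      (∀ p ∈ F, IsOpen p.1 ∧ ‖p.2‖ ≤ ρ ∧ ∀ s ∈ p.1, s ∈ K → ∀ b ∈ B, μ ≤ N s (p.2 + b)) ∧
      ∀ t ∈ X', ∃ p ∈ F, t ∈ p.1) ?_ ?_ ?_ ?_
  · exact ⟨∅, 1, finite_empty, one_pos, fun p hp => absurd hp (notMem_empty p),
      fun t ht => absurd ht (notMem_empty t)⟩
  · rintro X₁ X₂ h12 ⟨F, μ, h1, h2, h3, h4⟩
    exact ⟨F, μ, h1, h2, h3, fun t ht => h4 t (h12 ht)⟩
  · rintro X₁ X₂ ⟨F₁, μ₁, a1, a2, a3, a4⟩ ⟨F₂, μ₂, b1, b2, b3, b4⟩
    refine ⟨F₁ ∪ F₂, min μ₁ μ₂, a1.union b1, lt_min a2 b2, ?_, ?_⟩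
    · rintro p (hp | hp)
      · obtain ⟨c1, c2, c3⟩ := a3 p hp
        exact ⟨c1, c2, fun s hs hK b hb => (min_le_left _ _).trans (c3 s hs hK b hb)⟩
      · obtain ⟨c1, c2, c3⟩ := b3 p hp
        exact ⟨c1, c2, fun s hs hK b hb => (min_le_right _ _).trans (c3 s hs hK b hb)⟩
    · rintro t (ht | ht)
      · obtain ⟨p, hp, h⟩ := a4 t ht
        exact ⟨p, Or.inl hp, h⟩
      · obtain ⟨p, hp, h⟩ := b4 t ht
        exact ⟨p, Or.inr hp, h⟩
  · intro t _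
    by_cases ht : t ∈ K
    · obtain ⟨y, hy⟩ := h.big t ht S hS
      have hc : 0 < ρ / (‖y‖ + 1) := div_pos hρ (by positivity)
      have hy' : ∀ b ∈ B, 0 < N t ((ρ / (‖y‖ + 1)) • y + b) := by
        intro b hb
        have e : (ρ / (‖y‖ + 1)) • y + b = (ρ / (‖y‖ + 1)) • (y + (ρ / (‖y‖ + 1))⁻¹ • b) := by
          rw [smul_add, smul_inv_smul₀ hc.ne']
        rw [e, h.smul]
        exact mul_pos (abs_pos.2 hc.ne') (hy _ (S.smul_mem _ (hBS b hb)))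
      obtain ⟨U, hU, htU, μ, hμ, h1⟩ := loc1 h _ hB hy'
      refine ⟨U, mem_nhdsWithin_of_mem_nhds (hU.mem_nhds htU), {(U, (ρ / (‖y‖ + 1)) • y)}, μ,
        finite_singleton _, hμ, ?_, ?_⟩
      · rintro p rfl
        refine ⟨hU, ?_, fun s hs hK b hb => h1 s hs hK b hb⟩
        change ‖(ρ / (‖y‖ + 1)) • y‖ ≤ ρ
        rw [norm_smul, Real.norm_of_nonneg hc.le, div_mul_eq_mul_div,
          div_le_iff₀ (by positivity)]
        nlinarith [norm_nonneg y]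
      · exact fun s hs => ⟨_, rfl, hs⟩
    · refine ⟨Kᶜ, mem_nhdsWithin_of_mem_nhds (hK.isOpen_compl.mem_nhds ht), {(Kᶜ, 0)}, 1,
        finite_singleton _, one_pos, ?_, ?_⟩
      · rintro p rfl
        refine ⟨hK.isOpen_compl, by simpa using hρ.le, fun s hs hK => absurd hK hs⟩
      · exact fun s hs => ⟨_, rfl, hs⟩

/-- the state of the recursion -/
structure St (V : Type w) [NormedAddCommGroup V] [NormedSpace ℝ V] where
  S : Submodule ℝ V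
  fin : FiniteDimensional ℝ S
  B : Set V
  comp : IsCompact B
  sub : ∀ b ∈ B, b ∈ S
  ρ : ℝ
  pos : 0 < ρ

/-- the possible contributions of a stage -/
def DD (F : Set (Set X × V)) : Set V :=
  insert 0 ((fun q : ℝ × V => q.1 • q.2) '' (Icc (0 : ℝ) 1 ×ˢ (Prod.snd '' F)))

omit [TopologicalSpace X] in
theorem isCompact_DD {F : Set (Set X × V)} (hF : F.Finite) : IsCompact (DD F) := by
  refine IsCompact.insert ?_ 0
  exact (isCompact_Icc.prod (hF.image _).isCompact).image (by fun_prop)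

omit [TopologicalSpace X] in
theorem norm_DD {F : Set (Set X × V)} {ρ : ℝ} (hρ : 0 < ρ) (hF : ∀ p ∈ F, ‖p.2‖ ≤ ρ) {d : V}
    (hd : d ∈ DD F) : ‖d‖ ≤ ρ := by
  rcases hd with rfl | ⟨⟨c, y⟩, ⟨hc, p, hp, rfl⟩, rfl⟩
  · simpa using hρ.le
  · change ‖c • p.2‖ ≤ ρ
    rw [norm_smul, Real.norm_of_nonneg hc.1]
    have h1 := hF p hp
    have h2 : c * ‖p.2‖ ≤ 1 * ‖p.2‖ := mul_le_mul_of_nonneg_right hc.2 (norm_nonneg _)
    linarith

theorem exists_next [CompactSpace X] (h : Sn K N C) (hK : IsClosed K) (s : St V) :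
    ∃ (F : Set (Set X × V)) (μ : ℝ) (s' : St V), 0 < μ ∧ (∀ p ∈ F, IsOpen p.1 ∧ ‖p.2‖ ≤ s.ρ ∧
      ∀ t ∈ p.1, t ∈ K → ∀ b ∈ s.B, μ ≤ N t (p.2 + b)) ∧ (∀ t, ∃ p ∈ F, t ∈ p.1) ∧
      s'.ρ ≤ s.ρ / 2 ∧ C * (2 * s'.ρ) < μ ∧ ∀ b ∈ s.B, ∀ d ∈ DD F, b + d ∈ s'.B := by
  obtain ⟨F, μ, h1, h2, h3, h4⟩ := step h hK s.S s.fin s.comp s.sub s.pos
  have hC : 0 < C + 1 := by have := h.nonneg; linarith
  have := s.fin
  have hfs : FiniteDimensional ℝ (Submodule.span ℝ (Prod.snd '' F) : Submodule ℝ V) :=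
    FiniteDimensional.span_of_finite ℝ (h1.image _)
  refine ⟨F, μ, ⟨s.S ⊔ Submodule.span ℝ (Prod.snd '' F), inferInstance, s.B + DD F,
    s.comp.add (isCompact_DD h1), ?_, min (s.ρ / 2) (μ / (4 * (C + 1))),
    lt_min (half_pos s.pos) (by positivity)⟩, h2, h3, h4, min_le_left _ _, ?_,
    fun b hb d hd => add_mem_add hb hd⟩
  · rintro _ ⟨b, hb, d, hd, rfl⟩
    refine Submodule.add_mem_sup (s.sub b hb) ?_
    rcases hd with rfl | ⟨⟨c, y⟩, ⟨hc, hy⟩, rfl⟩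
    · exact Submodule.zero_mem _
    · exact Submodule.smul_mem _ _ (Submodule.subset_span hy)
  · change C * (2 * min (s.ρ / 2) (μ / (4 * (C + 1)))) < μ
    have h5 : min (s.ρ / 2) (μ / (4 * (C + 1))) ≤ μ / (4 * (C + 1)) := min_le_right _ _
    have h6 : (C + 1) * (2 * (μ / (4 * (C + 1)))) = μ / 2 := by
      field_simp
      norm_num
    have h7 : C * (2 * min (s.ρ / 2) (μ / (4 * (C + 1)))) ≤ (C + 1) * (2 * (μ / (4 * (C + 1)))) :=
      mul_le_mul (by linarith) (by linarith)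
        (mul_nonneg two_pos.le (lt_min (half_pos s.pos) (by positivity)).le) hC.le
    linarith

theorem exists_seq [CompactSpace X] (h : Sn K N C) (hK : IsClosed K) :
    ∃ (F : ℕ → Set (Set X × V)) (μ ρ : ℕ → ℝ) (B : ℕ → Set V), (0 : V) ∈ B 0 ∧
      (∀ i, 0 < ρ i) ∧ (∀ i, ∀ p ∈ F i, IsOpen p.1 ∧ ‖p.2‖ ≤ ρ i ∧
      ∀ t ∈ p.1, t ∈ K → ∀ b ∈ B i, μ i ≤ N t (p.2 + b)) ∧ (∀ i t, ∃ p ∈ F i, t ∈ p.1) ∧
      (∀ i, ρ (i + 1) ≤ ρ i / 2) ∧ (∀ i, C * (2 * ρ (i + 1)) < μ i) ∧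
      ∀ i, ∀ b ∈ B i, ∀ d ∈ DD (F i), b + d ∈ B (i + 1) := by
  choose F μ nx hμ hF hcov hρ hρμ hB using exists_next (X := X) h hK
  let s0 : St V := ⟨⊥, inferInstance, {0}, isCompact_singleton, by rintro _ rfl; exact zero_mem _,
    1, one_pos⟩
  let st : ℕ → St V := fun n => Nat.rec s0 (fun _ s => nx s) n
  exact ⟨fun i => F (st i), fun i => μ (st i), fun i => (st i).ρ, fun i => (st i).B,
    mem_singleton _, fun i => (st i).pos, fun i => hF (st i), fun i => hcov (st i),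
    fun i => hρ (st i), fun i => hρμ (st i), fun i => hB (st i)⟩

end

theorem specTop : SpecTop.{v, w} := by
  classical
  intro X _ _ _ hX K hK V _ _ N C h0 h1 h2 h3 h4 h5
  have h : Sn K N C := ⟨h0, h1, h2, h3, h4, h5⟩
  obtain ⟨F, μ, ρ, B, hB0, hρ0, hF, hcov, hρ, hρμ, hB⟩ := exists_seq h hK
  obtain ⟨W, hW, hWcov⟩ := hX (fun i => Prod.fst '' F i) (fun i => ⟨by
    rintro _ ⟨p, hp, rfl⟩
    exact (hF i p hp).1, by
    rw [eq_univ_iff_forall]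
    intro t
    obtain ⟨p, hp, ht⟩ := hcov i t
    exact ⟨p.1, ⟨p, hp, rfl⟩, ht⟩⟩)
  -- the finite subcover
  let ι := {p : ℕ × Set X // p.2 ∈ W p.1}
  have hopen : ∀ p : ι, IsOpen p.1.2 := fun p => ((hW p.1.1).1 _ p.2).1
  obtain ⟨J, hJ⟩ := (isCompact_univ (X := X)).elim_finite_subcover (fun p : ι => p.1.2) hopen (by
    intro t _
    have ht : t ∈ ⋃ i, ⋃₀ W i := by rw [hWcov]; trivial
    obtain ⟨i, v, hv, htv⟩ : ∃ i, ∃ v ∈ W i, t ∈ v := by simpa using ht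
    exact mem_iUnion.2 ⟨⟨(i, v), hv⟩, htv⟩)
  have hy : ∀ p : ι, ∃ q ∈ F p.1.1, p.1.2 ⊆ q.1 := by
    intro p
    obtain ⟨-, u, ⟨q, hq, rfl⟩, hsub⟩ := (hW p.1.1).1 _ p.2
    exact ⟨q, hq, hsub⟩
  choose q hq hqsub using hy
  -- shrinking
  obtain ⟨T, hT1, hT2, hT3⟩ := exists_iUnion_eq_closed_subset (X := X)
    (u := fun p : J => p.1.1.2) (fun p => hopen p.1) (fun _ => toFinite _) (by
      rw [eq_univ_iff_forall]
      intro t
      have := hJ (mem_univ t)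
      simp only [mem_iUnion] at this
      obtain ⟨p, hp, ht⟩ := this
      exact mem_iUnion.2 ⟨⟨p, hp⟩, ht⟩)
  have hφ : ∀ p : J, ∃ φ : C(X, ℝ), EqOn φ 0 (p.1.1.2)ᶜ ∧ EqOn φ 1 (T p) ∧
      ∀ x, φ x ∈ Icc (0 : ℝ) 1 := fun p =>
    exists_continuous_zero_one_of_isClosed (hopen p.1).isClosed_compl (hT2 p)
      (disjoint_left.2 fun x hx hx' => hx (hT3 p hx'))
  choose φ hφ0 hφ1 hφI using hφ
  have hφex : ∀ t, ∃ p : J, φ p t = 1 := by
    intro t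
    have ht : t ∈ iUnion T := by rw [hT1]; trivial
    obtain ⟨p, hp⟩ := mem_iUnion.1 ht
    exact ⟨p, hφ1 p hp⟩
  have hmem : ∀ (p : J) t, φ p t ≠ 0 → t ∈ p.1.1.2 := by
    intro p t hne
    by_contra hcon
    exact hne (hφ0 p hcon)
  have huniq : ∀ (p p' : J) t, p.1.1.1 = p'.1.1.1 → φ p t ≠ 0 → φ p' t ≠ 0 → p = p' := by
    intro p p' t he hp hp'
    have e1 : p.1.1.2 = p'.1.1.2 := by
      by_contra hne
      have hm' : p'.1.1.2 ∈ W p.1.1.1 := by rw [he]; exact p'.1.2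
      have hd := (hW p.1.1.1).2 p.1.2 hm' hne
      exact disjoint_left.1 hd (hmem p t hp) (hmem p' t hp')
    exact Subtype.ext (Subtype.ext (Prod.ext he e1))
  -- the sum of one stage
  let sg : ℕ → X → V := fun j t => ∑ p ∈ Finset.univ.filter (fun p : J => p.1.1.1 = j),
    φ p t • (q p.1).2
  have sg_eq : ∀ (p : J) t, φ p t ≠ 0 → sg p.1.1.1 t = φ p t • (q p.1).2 := by
    intro p t hp
    refine Finset.sum_eq_single p ?_ ?_
    · intro p' hp' hne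
      by_contra hcon
      refine hne (huniq p' p t (Finset.mem_filter.1 hp').2 (fun h0 => hcon (by rw [h0, zero_smul])) hp)
    · intro hp'
      have hpm : p ∈ Finset.univ.filter (fun p' : J => p'.1.1.1 = p.1.1.1) := by
        rw [Finset.mem_filter]
        exact ⟨Finset.mem_univ p, rfl⟩
      exact absurd hpm hp'
  have sg_mem : ∀ j t, sg j t ∈ DD (F j) := by
    intro j t
    by_cases hex : ∃ p : J, p.1.1.1 = j ∧ φ p t ≠ 0
    · obtain ⟨p, rfl, hp⟩ := hex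
      rw [sg_eq p t hp]
      exact Or.inr ⟨(φ p t, (q p.1).2), ⟨hφI p t, _, hq p.1, rfl⟩, rfl⟩
    · have e : sg j t = 0 := by
        refine Finset.sum_eq_zero fun p hp => ?_
        by_cases h0 : φ p t = 0
        · rw [h0, zero_smul]
        · exact absurd ⟨p, (Finset.mem_filter.1 hp).2, h0⟩ hex
      rw [e]
      exact Or.inl rfl
  have pre : ∀ i t, ∑ j ∈ Finset.range i, sg j t ∈ B i := by
    intro i t
    induction i with
    | zero => rw [Finset.sum_range_zero]; exact hB0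
    | succ i ih =>
      rw [Finset.sum_range_succ]
      exact hB i _ ih _ (sg_mem i t)
  have tail : ∀ i n, i + 1 ≤ n → ∑ j ∈ Finset.Ico (i + 1) n, ρ j + 2 * ρ n ≤
      2 * ρ (i + 1) := by
    intro i n hn
    induction n, hn using Nat.le_induction with
    | base => rw [Finset.Ico_self, Finset.sum_empty, zero_add]
    | succ n hn ih =>
      rw [Finset.sum_Ico_succ_top hn]
      have e := hρ n
      linarith
  -- a bound for the stages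
  obtain ⟨n, hn⟩ : ∃ n, ∀ p : J, p.1.1.1 < n := by
    obtain ⟨M, hM⟩ := (Finset.univ.image fun p : J => p.1.1.1).bddAbove
    exact ⟨M + 1, fun p => Nat.lt_succ_of_le
      (hM (Finset.mem_coe.2 (Finset.mem_image_of_mem _ (Finset.mem_univ p))))⟩
  have total : ∀ t, ∑ p : J, φ p t • (q p.1).2 = ∑ j ∈ Finset.range n, sg j t := by
    intro t
    exact (Finset.sum_fiberwise_of_maps_to (fun p _ => Finset.mem_range.2 (hn p)) _).symm
  refine ⟨Fintype.card J, fun i => φ ((Fintype.equivFin J).symm i),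
    fun i => (q ((Fintype.equivFin J).symm i).1).2, fun i t => hφI _ t, fun t ht => ?_⟩
  have e1 : ∑ i, φ ((Fintype.equivFin J).symm i) t • (q ((Fintype.equivFin J).symm i).1).2 =
      ∑ p : J, φ p t • (q p.1).2 :=
    Equiv.sum_comp (Fintype.equivFin J).symm fun p : J => φ p t • (q p.1).2
  rw [e1, total]
  obtain ⟨p, hp⟩ := hφex t
  have hp0 : φ p t ≠ 0 := by rw [hp]; exact one_ne_zero
  have hsg : sg p.1.1.1 t = (q p.1).2 := by rw [sg_eq p t hp0, hp, one_smul]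
  have hlt := hn p
  have hsplit : ∑ j ∈ Finset.range n, sg j t = ∑ j ∈ Finset.range p.1.1.1, sg j t +
      ((q p.1).2 + ∑ j ∈ Finset.Ico (p.1.1.1 + 1) n, sg j t) := by
    have e2 := Finset.sum_eq_sum_Ico_succ_bot hlt (fun j => sg j t)
    have e3 := Finset.sum_range_add_sum_Ico (fun j => sg j t) hlt.le
    rw [← hsg]
    exact e3.symm.trans (congrArg (∑ j ∈ Finset.range p.1.1.1, sg j t + ·) e2)
  have hr : ‖∑ j ∈ Finset.Ico (p.1.1.1 + 1) n, sg j t‖ ≤ 2 * ρ (p.1.1.1 + 1) := by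
    refine (norm_sum_le _ _).trans ?_
    have a1 : ∑ j ∈ Finset.Ico (p.1.1.1 + 1) n, ‖sg j t‖ ≤
        ∑ j ∈ Finset.Ico (p.1.1.1 + 1) n, ρ j :=
      Finset.sum_le_sum fun j _ => norm_DD (hρ0 j) (fun p hp => (hF j p hp).2.1)
        (sg_mem j t)
    have a2 := tail p.1.1.1 n hlt
    have a3 := hρ0 n
    linarith
  have key := (hF p.1.1.1 (q p.1) (hq p.1)).2.2 t (hqsub p.1 (hmem p t hp0)) ht _
    (pre p.1.1.1 t)
  have b1 : N t ((q p.1).2 + ∑ j ∈ Finset.range p.1.1.1, sg j t) ≤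
      N t (∑ j ∈ Finset.range n, sg j t) +
        N t (-∑ j ∈ Finset.Ico (p.1.1.1 + 1) n, sg j t) := by
    refine le_trans (le_of_eq ?_) (h.add _ _ _)
    congr 1
    rw [hsplit]
    abel
  have b2 : N t (-∑ j ∈ Finset.Ico (p.1.1.1 + 1) n, sg j t) ≤
      C * (2 * ρ (p.1.1.1 + 1)) := by
    refine (h.le _ _).trans ?_
    rw [norm_neg]
    exact mul_le_mul_of_nonneg_left hr h.nonneg
  have b3 := hρμ p.1.1.1
  linarith

end Vale.Agent.P133.R2.H712
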